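import Vale.Agent.P125.Final

namespace Vale.Agent.Results.P125.SmallConstant

open Vale.Agent.P125

/-- A real normed space with Markov type `p > 1` with constant `K < 2^(1 - 1/p)` is P-convex
(Kottman) and J-convex (James). -/
theorem result (X : Type*) [NormedAddCommGroup X] [NormedSpace ℝ X] (p K : ℝ) (hp : 1 < p)
    (hK0 : 0 ≤ K) (hK : K < 2 ^ (1 - 1 / p)) (h : MarkovTypeWith X p K) :
    PConvex X ∧ JConvex X :=
  main (lt_trans one_pos hp) hK0 hK h

end Vale.Agent.Results.P125.SmallConstant
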